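import Vale.Agent.P266.Final

namespace Vale.Agent.Results.P266.A_full

theorem result : ∃ (A : Type) (_ : CommRing A) (_ : IsDomain A) (_ : Algebra ℂ A),
    Algebra.FiniteType ℂ A ∧ Module.Free A (Derivation ℂ A A) ∧
      Module.Projective A (Derivation ℂ A A) ∧ ¬ IsRegularRing A := by
  obtain ⟨A, i1, i2, i3, h1, h2, h3⟩ := Vale.Agent.P266.counterexample
  exact ⟨A, i1, i2, i3, h1, h2, Module.Projective.of_free, h3⟩

end Vale.Agent.Results.P266.A_full
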